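import Vale.Agent.P088.H924.P.Defs
import Vale.Agent.P088.H924.BDivx
import Vale.Agent.P088.H158.ConnA
import Vale.Agent.P088.H641.BHad

/-!
# P088, data on a patch: the row P_FL
-/

open MeasureTheory Set Filter Topology
open scoped ContDiff Matrix

noncomputable section

namespace Vale.Agent.P088.LR.P72

open Vale.Agent.P088.LR Vale.Agent.P088.LR.B Vale.Agent.P088.LR.U Vale.Agent.P088.LR.P

variable {n N : ℕ}

/-- The boundary equation, blown up. -/
theorem blow (ρ : V n → ℝ) (hρ : ContDiff ℝ ∞ ρ) (X : V n → V n)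
    (hX : Continuous X) (Z : V n → ℝ) (hZ : Continuous Z) (p : V n) (hp : ρ p = 0)
    (hne : fderiv ℝ ρ p ≠ 0) (G : Set (V n)) (hG : IsOpen G) (hpG : p ∈ G)
    (h : ∀ φ : V n → ℝ, ContDiff ℝ ∞ φ → tsupport φ ⊆ G →
      ∫ x in Om ρ, (fderiv ℝ φ x (X x) + φ x * Z x) = 0)
    (φ : V n → ℝ) (hφ : ContDiff ℝ ∞ φ) (hφc : HasCompactSupport φ) :
    ∫ y in {y | 0 < fderiv ℝ ρ p y}, fderiv ℝ φ y (X p) = 0 := by
  have hc : Continuous ρ := hρ.continuous
  have hOm : IsOpen (Om ρ) := isOpen_lt continuous_const hc
  have hlc : Continuous (fderiv ℝ ρ p) := (fderiv ℝ ρ p).continuous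
  have hLo : IsOpen {y : V n | 0 < fderiv ℝ ρ p y} := isOpen_lt continuous_const hlc
  have hdc : Continuous (fderiv ℝ φ) := hφ.continuous_fderiv (by simp)
  obtain ⟨R, hR⟩ := (hφc.isCompact.isBounded).subset_closedBall (0 : V n)
  set R' : ℝ := max R 1 with hR'
  have hR1 : 0 < R' := lt_of_lt_of_le one_pos (le_max_right _ _)
  have hsup : ∀ y, φ y ≠ 0 → ‖y‖ ≤ R' := fun y hy => by
    have := hR (subset_tsupport _ (Function.mem_support.2 hy))
    rw [mem_closedBall_zero_iff] at this
    exact this.trans (le_max_left _ _)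
  have hsup2 : ∀ y, R' < ‖y‖ → fderiv ℝ φ y = 0 := fun y hy => by
    by_contra hne
    have := hR (tsupport_fderiv_subset ℝ (subset_tsupport _ (Function.mem_support.2 hne)))
    rw [mem_closedBall_zero_iff] at this
    exact absurd (this.trans (le_max_left _ _)) (not_le.2 hy)
  obtain ⟨C, hC⟩ := (isCompact_closedBall p R').exists_bound_of_continuousOn hX.continuousOn
  obtain ⟨C', hC'⟩ := (isCompact_closedBall p R').exists_bound_of_continuousOn hZ.continuousOn
  -- the blown up integrals
  set F : ℝ → V n → ℝ := fun e y =>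
    {y : V n | 0 < ρ (p + e • y)}.indicator
      (fun y => fderiv ℝ φ y (X (p + e • y)) + e * (φ y * Z (p + e • y))) y with hF
  have hz : ∀ᶠ e : ℝ in 𝓝[>] 0, ∫ y, F e y = 0 := by
    obtain ⟨d, hd, hd2⟩ := Metric.isOpen_iff.1 hG p hpG
    have he : ∀ᶠ e : ℝ in 𝓝[>] 0, e < d / R' :=
      (eventually_lt_nhds (div_pos hd hR1)).filter_mono nhdsWithin_le_nhds
    filter_upwards [he, self_mem_nhdsWithin] with e he he0
    have he0 : 0 < e := he0
    set ψ : V n → ℝ := fun x => φ (e⁻¹ • (x - p)) with hψ
    have hψs : ContDiff ℝ ∞ ψ := hφ.comp ((contDiff_id.sub contDiff_const).const_smul _)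
    have hψd : ∀ x, fderiv ℝ ψ x = e⁻¹ • fderiv ℝ φ (e⁻¹ • (x - p)) := by
      intro x
      have h1 : HasFDerivAt (fun x : V n => e⁻¹ • (x - p))
          (e⁻¹ • ContinuousLinearMap.id ℝ (V n)) x :=
        ((hasFDerivAt_id x).sub_const p).fun_const_smul e⁻¹
      have h2 : HasFDerivAt ψ _ x :=
        ((hφ.differentiable (by simp) (e⁻¹ • (x - p))).hasFDerivAt).comp x h1
      rw [h2.fderiv]
      ext v
      simp
    have h1 := h ψ hψs ?_
    swap
    · have hcl : tsupport ψ ⊆ Metric.closedBall p (e * R') := by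
        refine closure_minimal (fun x hx => ?_) Metric.isClosed_closedBall
        have h3 := hsup _ hx
        rw [Metric.mem_closedBall, dist_eq_norm]
        have h5 : ‖x - p‖ = e * ‖e⁻¹ • (x - p)‖ := by
          rw [norm_smul, norm_inv, Real.norm_of_nonneg he0.le, ← mul_assoc,
            mul_inv_cancel₀ he0.ne', one_mul]
        rw [h5]
        gcongr
      refine hcl.trans (Subset.trans (Metric.closedBall_subset_ball ?_) hd2)
      calc e * R' < d / R' * R' := by gcongr
        _ = d := div_mul_cancel₀ _ hR1.ne'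
    have h7 : ∫ x, (Om ρ).indicator (fun x => fderiv ℝ φ (e⁻¹ • (x - p)) (X x) +
        e * (φ (e⁻¹ • (x - p)) * Z x)) x = 0 := by
      rw [integral_indicator hOm.measurableSet]
      have : ∀ x, fderiv ℝ φ (e⁻¹ • (x - p)) (X x) + e * (φ (e⁻¹ • (x - p)) * Z x) =
          e * (fderiv ℝ ψ x (X x) + ψ x * Z x) := by
        intro x
        rw [hψd, smul_apply, smul_eq_mul, mul_add, mul_inv_cancel_left₀ he0.ne']
      simp only [this]
      rw [integral_const_mul, h1, mul_zero]
    rw [← integral_add_left_eq_self _ p] at h7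
    have h8 := Measure.integral_comp_smul (volume : Measure (V n)) (fun z =>
      (Om ρ).indicator (fun x => fderiv ℝ φ (e⁻¹ • (x - p)) (X x) +
        e * (φ (e⁻¹ • (x - p)) * Z x)) (p + z)) e
    rw [h7, smul_zero] at h8
    rw [← h8]
    congr 1
    funext y
    have h9 : e⁻¹ • (p + e • y - p) = y := by
      rw [add_sub_cancel_left, smul_smul, inv_mul_cancel₀ he0.ne', one_smul]
    by_cases hpos : 0 < ρ (p + e • y)
    · rw [indicator_of_mem (show p + e • y ∈ Om ρ from hpos), h9]
      exact indicator_of_mem (s := {y : V n | 0 < ρ (p + e • y)}) hpos _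
    · rw [indicator_of_notMem (show p + e • y ∉ Om ρ from hpos)]
      exact indicator_of_notMem (s := {y : V n | 0 < ρ (p + e • y)}) hpos _
  have hlim : Tendsto (fun e => ∫ y, F e y) (𝓝[>] 0)
      (𝓝 (∫ y, {y : V n | 0 < fderiv ℝ ρ p y}.indicator (fun y => fderiv ℝ φ y (X p)) y)) := by
    refine tendsto_integral_filter_of_dominated_convergence
      (fun y => ‖fderiv ℝ φ y‖ * C + ‖φ y‖ * C') ?_ ?_ ?_ ?_
    · refine Eventually.of_forall fun e => ?_
      have hm : Continuous fun y : V n => p + e • y :=
        continuous_const.add (continuous_id.const_smul e)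
      refine (StronglyMeasurable.indicator ?_ ?_).aestronglyMeasurable
      · exact ((hdc.clm_apply (hX.comp hm)).add
          (continuous_const.mul (hφ.continuous.mul (hZ.comp hm)))).stronglyMeasurable
      · exact (isOpen_lt continuous_const (hc.comp hm)).measurableSet
    · filter_upwards [(eventually_lt_nhds (zero_lt_one (α := ℝ))).filter_mono
        nhdsWithin_le_nhds, self_mem_nhdsWithin] with e he he0
      have he0 : 0 < e := he0
      refine Eventually.of_forall fun y => ?_
      by_cases hy : ‖y‖ ≤ R'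
      · have hmem : p + e • y ∈ Metric.closedBall p R' := by
          rw [Metric.mem_closedBall, dist_eq_norm, add_sub_cancel_left, norm_smul,
            Real.norm_of_nonneg he0.le]
          calc e * ‖y‖ ≤ 1 * R' := by gcongr
            _ = R' := one_mul _
        have hb := hC _ hmem
        have hb' := hC' _ hmem
        refine (norm_indicator_le_norm_self _ _).trans ((norm_add_le _ _).trans ?_)
        refine add_le_add ?_ ?_
        · refine (ContinuousLinearMap.le_opNorm _ _).trans ?_
          gcongr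
        · rw [norm_mul, norm_mul, Real.norm_of_nonneg he0.le]
          have h1 : ‖φ y‖ * ‖Z (p + e • y)‖ ≤ ‖φ y‖ * C' := by gcongr
          have h2 : 0 ≤ ‖φ y‖ * ‖Z (p + e • y)‖ := by positivity
          nlinarith
      · have h0 := hsup2 y (not_le.1 hy)
        have h0' : φ y = 0 := by
          by_contra hne'
          exact hy (hsup y hne')
        simp only [hF, indicator, h0, h0', zero_apply, norm_zero, zero_mul, mul_zero, add_zero,
          ite_self, le_refl]
    · exact ((hdc.norm.mul continuous_const).integrable_of_hasCompactSupport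
        ((hφc.fderiv ℝ).norm.mul_right)).add
        ((hφ.continuous.norm.mul continuous_const).integrable_of_hasCompactSupport
          (hφc.norm.mul_right))
    · have hker : volume {y : V n | fderiv ℝ ρ p y = 0} = 0 := by
        have := Measure.addHaar_submodule (volume : Measure (V n))
          (LinearMap.ker (fderiv ℝ ρ p : V n →ₗ[ℝ] ℝ)) ?_
        · exact this
        · intro htop
          apply hne
          ext v
          have : v ∈ LinearMap.ker (fderiv ℝ ρ p : V n →ₗ[ℝ] ℝ) := by
            rw [htop]; trivial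
          exact this
      have hae : ∀ᵐ y : V n, fderiv ℝ ρ p y ≠ 0 := by
        rw [ae_iff]
        simpa using hker
      filter_upwards [hae] with y hy
      have hm : Continuous fun e : ℝ => p + e • y :=
        continuous_const.add (continuous_id.smul continuous_const)
      have hXt : Tendsto (fun e : ℝ => fderiv ℝ φ y (X (p + e • y)) +
          e * (φ y * Z (p + e • y))) (𝓝[>] 0) (𝓝 (fderiv ℝ φ y (X p))) := by
        have : Continuous fun e : ℝ => fderiv ℝ φ y (X (p + e • y)) +
            e * (φ y * Z (p + e • y)) :=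
          ((fderiv ℝ φ y).continuous.comp (hX.comp hm)).add
            (continuous_id.mul (continuous_const.mul (hZ.comp hm)))
        have h2 := this.tendsto 0
        simp only [zero_smul, add_zero, zero_mul] at h2
        exact h2.mono_left nhdsWithin_le_nhds
      have hder : HasDerivAt (fun e : ℝ => ρ (p + e • y)) (fderiv ℝ ρ p y) 0 := by
        have h1 : HasDerivAt (fun e : ℝ => p + e • y) y 0 := by
          have := ((hasDerivAt_id (0 : ℝ)).smul_const y).const_add p
          simpa using this
        have h2 : HasFDerivAt ρ (fderiv ℝ ρ p) (p + (0 : ℝ) • y) := by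
          rw [zero_smul, add_zero]
          exact (hρ.differentiable (by simp) p).hasFDerivAt
        exact h2.comp_hasDerivAt 0 h1
      have hsl := hder.tendsto_slope
      have hsl2 : Tendsto (fun e : ℝ => e⁻¹ * ρ (p + e • y)) (𝓝[>] 0) (𝓝 (fderiv ℝ ρ p y)) := by
        have h3 : Tendsto (slope (fun e : ℝ => ρ (p + e • y)) 0) (𝓝[>] 0)
            (𝓝 (fderiv ℝ ρ p y)) :=
          hsl.mono_left (nhdsWithin_mono _ fun e he => ne_of_gt he)
        refine h3.congr fun e => ?_
        rw [slope_def_field, zero_smul, add_zero, hp, sub_zero, sub_zero]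
        ring
      rcases lt_or_gt_of_ne hy with hl | hl
      · have he : ∀ᶠ e : ℝ in 𝓝[>] 0, F e y = 0 := by
          filter_upwards [hsl2.eventually_lt_const hl, self_mem_nhdsWithin] with e h1 h2
          have h2 : 0 < e := h2
          have : ¬ 0 < ρ (p + e • y) := fun h3 => absurd (mul_pos (inv_pos.2 h2) h3)
            (not_lt.2 h1.le)
          simp only [hF, indicator, mem_ofPred_eq, this, if_false]
        have hn : ¬ 0 < fderiv ℝ ρ p y := not_lt.2 hl.le
        simp only [indicator, mem_ofPred_eq, hn, if_false]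
        exact tendsto_const_nhds.congr' (he.mono fun e h => h.symm)
      · have he : ∀ᶠ e : ℝ in 𝓝[>] 0, F e y = fderiv ℝ φ y (X (p + e • y)) +
          e * (φ y * Z (p + e • y)) := by
          filter_upwards [hsl2.eventually_const_lt hl, self_mem_nhdsWithin] with e h1 h2
          have h2 : 0 < e := h2
          have : 0 < ρ (p + e • y) := by
            by_contra h3
            exact absurd h1 (not_lt.2 (mul_nonpos_of_nonneg_of_nonpos (inv_pos.2 h2).le
              (not_lt.1 h3)))
          simp only [hF, indicator, mem_ofPred_eq, this, if_true]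
        have hn : 0 < fderiv ℝ ρ p y := hl
        simp only [indicator, mem_ofPred_eq, hn, if_true]
        exact hXt.congr' (he.mono fun e h => h.symm)
  have hlim0 : Tendsto (fun e => ∫ y, F e y) (𝓝[>] 0) (𝓝 0) :=
    tendsto_const_nhds.congr' (hz.mono fun e h => h.symm)
  rw [← integral_indicator hLo.measurableSet]
  exact tendsto_nhds_unique hlim hlim0


/-- Real form: the flux vanishes. -/
theorem flux (ρ : V n → ℝ) (hρ : ContDiff ℝ ∞ ρ) (X : Fin n → V n → ℝ)
    (hX : ∀ i, Continuous (X i)) (Z : V n → ℝ) (hZ : Continuous Z) (p : V n) (hp : ρ p = 0)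
    (hne : fderiv ℝ ρ p ≠ 0) (G : Set (V n)) (hG : IsOpen G) (hpG : p ∈ G)
    (h : ∀ φ : V n → ℝ, ContDiff ℝ ∞ φ → tsupport φ ⊆ G →
      ∫ x in Om ρ, ((∑ i, X i x * pd i φ x) + φ x * Z x) = 0) :
    ∑ i, X i p * pd i ρ p = 0 := by
  have h0 : ∀ φ : V n → ℝ, ContDiff ℝ ∞ φ → tsupport φ ⊆ G →
      ∫ x in Om ρ, (fderiv ℝ φ x ((fun x i => X i x : V n → V n) x) + φ x * Z x) = 0 := by
    intro φ hφ hφG
    rw [← h φ hφ hφG]
    refine integral_congr_ae (Eventually.of_forall fun x => ?_)
    simp only
    rw [H924.sum_pd φ x (fun i => X i x)]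
  rw [H924.sum_pd ρ p (fun i => X i p)]
  exact H924.half (fderiv ℝ ρ p) hne _ fun φ hφ hφc =>
    blow ρ hρ (fun x i => X i x) (continuous_pi hX) Z hZ p hp hne G hG hpG h0 φ hφ hφc

/-- The derivative at `p` of a function which vanishes on `{ρ = 0}` near `p`. -/
theorem par {ρ : V n → ℝ} (hρ : ContDiff ℝ ∞ ρ) (hd : ∀ x, ρ x = 0 → fderiv ℝ ρ x ≠ 0)
    {G : Set (V n)} (hG : IsOpen G) {p : V n} (hpG : p ∈ G) (hp : ρ p = 0) {f : V n → ℝ}
    (hf : ContDiff ℝ ∞ f) (h0 : ∀ x ∈ G, ρ x = 0 → f x = 0) :
    ∃ c : ℝ, ∀ i, pd i f p = c * pd i ρ p := by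
  obtain ⟨d, hd0, hdG⟩ := Metric.isOpen_iff.1 hG p hpG
  let χ : ContDiffBump p := ⟨d / 4, d / 2, by positivity, by linarith⟩
  have hχG : ∀ x ∉ G, χ x = 0 := by
    intro x hx
    by_contra hne
    have h1 : x ∈ Function.support χ := hne
    rw [χ.support_eq] at h1
    exact hx (hdG (Metric.ball_subset_ball (by show d / 2 ≤ d; linarith) h1))
  have hF : ContDiff ℝ ∞ fun x => χ x * f x := χ.contDiff.mul hf
  obtain ⟨g, hg, hge⟩ := H641.had hρ hd hF fun x hx => by
    show χ x * f x = 0
    by_cases hxG : x ∈ G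
    · rw [h0 x hxG hx, mul_zero]
    · rw [hχG x hxG, zero_mul]
  refine ⟨g p, fun i => ?_⟩
  have h1 : f =ᶠ[𝓝 p] fun x => ρ x * g x := by
    filter_upwards [χ.eventuallyEq_one] with x hx
    have h2 := hge x
    rw [hx] at h2
    simpa using h2
  have h2 : HasFDerivAt (fun x => ρ x * g x) (ρ p • fderiv ℝ g p + g p • fderiv ℝ ρ p) p :=
    (hρ.differentiable (by simp) p).hasFDerivAt.mul (hg.differentiable (by simp) p).hasFDerivAt
  unfold pd
  rw [h1.fderiv_eq, h2.fderiv, hp]
  simp

/-- **Row P_FL.** -/
theorem fl : RowFL := by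
  intro n N ρ hρ s A hs hps hA w hw G hG hw0 h p hpG hp
  have hne := hρ.nz p hp
  have hcd : ∀ i, ContDiff ℝ ∞ (cd A i w) := fun i => H158.contDiff_cd hA hw i
  have hcdl : ∀ i l, Continuous fun x => cd A i w x l := fun i l =>
    (contDiff_pi.1 (hcd i) l).continuous
  -- the derivative of `w`
  have hpar : ∀ l, ∃ c : ℂ, ∀ i, pd i w p l = c * (pd i ρ p : ℝ) := by
    intro l
    have hwl : ContDiff ℝ ∞ fun x => w x l := contDiff_pi.1 hw l
    have hre : ContDiff ℝ ∞ fun x => (w x l).re := Complex.reCLM.contDiff.comp hwl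
    have him : ContDiff ℝ ∞ fun x => (w x l).im := Complex.imCLM.contDiff.comp hwl
    obtain ⟨a, ha⟩ := par hρ.sm hρ.nz hG hpG hp hre fun x hx h0 => by
      simp [hw0 x hx h0]
    obtain ⟨b, hb⟩ := par hρ.sm hρ.nz hG hpG hp him fun x hx h0 => by
      simp [hw0 x hx h0]
    refine ⟨⟨a, b⟩, fun i => ?_⟩
    have hd : DifferentiableAt ℝ (fun x => w x l) p := hwl.differentiable (by simp) p
    have e1 : pd i w p l = pd i (fun x => w x l) p := H158.pd_pi (hw.differentiable (by simp) p) i l
    have e2 : pd i (fun x => (w x l).re) p = (pd i (fun x => w x l) p).re := by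
      have h3 : HasFDerivAt (fun x => (w x l).re)
          (Complex.reCLM.comp (fderiv ℝ (fun x => w x l) p)) p :=
        Complex.reCLM.hasFDerivAt.comp p hd.hasFDerivAt
      unfold pd
      rw [h3.fderiv]
      rfl
    have e3 : pd i (fun x => (w x l).im) p = (pd i (fun x => w x l) p).im := by
      have h3 : HasFDerivAt (fun x => (w x l).im)
          (Complex.imCLM.comp (fderiv ℝ (fun x => w x l) p)) p :=
        Complex.imCLM.hasFDerivAt.comp p hd.hasFDerivAt
      unfold pd
      rw [h3.fderiv]
      rfl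
    rw [e1]
    apply Complex.ext
    · rw [← e2, ha i]
      simp
    · rw [← e3, hb i]
      simp
  -- the flux
  have hflux : ∀ l, ∑ j, (∑ i, (s p i j : ℂ) * cd A i w p l) * (pd j ρ p : ℝ) = 0 := by
    intro l
    obtain ⟨X, hXe⟩ : ∃ X : Fin n → V n → ℂ, X = fun j x => ∑ i, (s x i j : ℂ) * cd A i w x l :=
      ⟨_, rfl⟩
    obtain ⟨Z, hZe⟩ : ∃ Z : V n → ℂ, Z = fun x => ∑ i, ∑ j, (s x i j : ℂ) *
      (cd A i w x ⬝ᵥ star (A j x *ᵥ Pi.single l (1 : ℂ))) := ⟨_, rfl⟩
    have hXc : ∀ j, Continuous (X j) := by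
      intro j
      rw [hXe]
      exact continuous_finsetSum _ fun i _ =>
        (Complex.continuous_ofReal.comp (hs i j).continuous).mul (hcdl i l)
    have hZc : Continuous Z := by
      rw [hZe]
      refine continuous_finsetSum _ fun i _ => continuous_finsetSum _ fun j _ =>
        (Complex.continuous_ofReal.comp (hs i j).continuous).mul ?_
      simp only [dotProduct]
      refine continuous_finsetSum _ fun m _ => (hcdl i m).mul ?_
      have h1 : ∀ x, (star (A j x *ᵥ Pi.single l (1 : ℂ))) m = star (A j x m l) := by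
        intro x
        simp
      simp only [h1]
      exact continuous_star.comp (hA.1 j m l).continuous
    have key : ∀ φ : V n → ℝ, ContDiff ℝ ∞ φ → tsupport φ ⊆ G →
        ∫ x in Om ρ, ((∑ j, X j x * (pd j φ x : ℝ)) + (φ x : ℝ) * Z x) = 0 := by
      intro φ hφ hφG
      have hφc : ContDiff ℝ ∞ fun x => ((φ x : ℝ) : ℂ) := Complex.ofRealCLM.contDiff.comp hφ
      have h1 := h (fun x => ((φ x : ℝ) : ℂ) • Pi.single l (1 : ℂ))
        (hφc.smul contDiff_const) (by
          refine (tsupport_smul_subset_left _ _).trans (Subset.trans ?_ hφG)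
          refine closure_mono fun x hx => ?_
          intro h0
          apply hx
          simp [h0])
      rw [← h1]
      unfold ea
      refine integral_congr_ae (Eventually.of_forall fun x => ?_)
      simp only
      have e1 : ∀ j, cd A j (fun x => ((φ x : ℝ) : ℂ) • (Pi.single l (1 : ℂ) : Fin N → ℂ)) x =
          ((pd j φ x : ℝ) : ℂ) • Pi.single l (1 : ℂ) +
            ((φ x : ℝ) : ℂ) • (A j x *ᵥ Pi.single l (1 : ℂ)) := by
        intro j
        rw [H158.cd_smul A hφc contDiff_const]
        have e2 : pd j (fun x => ((φ x : ℝ) : ℂ)) x = ((pd j φ x : ℝ) : ℂ) := by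
          have h3 : HasFDerivAt (fun x => ((φ x : ℝ) : ℂ))
              (Complex.ofRealCLM.comp (fderiv ℝ φ x)) x :=
            Complex.ofRealCLM.hasFDerivAt.comp x (hφ.differentiable (by simp) x).hasFDerivAt
          unfold pd
          rw [h3.fderiv]
          rfl
        have e3 : cd A j (fun _ => (Pi.single l (1 : ℂ) : Fin N → ℂ)) x =
            A j x *ᵥ Pi.single l (1 : ℂ) := by
          unfold cd pd
          simp
        rw [e2, e3]
      have e4 : ∀ i j, cd A i w x ⬝ᵥ star (((pd j φ x : ℝ) : ℂ) • (Pi.single l (1 : ℂ) :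
          Fin N → ℂ) + ((φ x : ℝ) : ℂ) • (A j x *ᵥ Pi.single l (1 : ℂ))) =
          ((pd j φ x : ℝ) : ℂ) * cd A i w x l + ((φ x : ℝ) : ℂ) *
            (cd A i w x ⬝ᵥ star (A j x *ᵥ Pi.single l (1 : ℂ))) := by
        intro i j
        have e5 : star (Pi.single l (1 : ℂ) : Fin N → ℂ) = Pi.single l (1 : ℂ) := by
          ext m
          by_cases hm : m = l
          · subst hm; simp
          · simp [hm]
        rw [star_add, star_smul, star_smul, dotProduct_add, dotProduct_smul, dotProduct_smul, e5]
        simp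
      simp only [e1, e4]
      rw [hXe, hZe]
      simp only [mul_add, Finset.sum_add_distrib, Finset.mul_sum, Finset.sum_mul]
      rw [Finset.sum_comm]
      congr 1
      · refine Finset.sum_congr rfl fun i _ => Finset.sum_congr rfl fun j _ => ?_
        ring
      · refine Finset.sum_congr rfl fun i _ => Finset.sum_congr rfl fun j _ => ?_
        ring
    have hcl : IsCompact (closure (Om ρ)) :=
      (hρ.bd.subset fun x (hx : 0 < ρ x) => (show 0 ≤ ρ x from hx.le)).isCompact_closure
    have hint : ∀ φ : V n → ℝ, ContDiff ℝ ∞ φ →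
        IntegrableOn (fun x => (∑ j, X j x * (pd j φ x : ℝ)) + (φ x : ℝ) * Z x) (Om ρ) := by
      intro φ hφ
      have hc : Continuous fun x => (∑ j, X j x * ((pd j φ x : ℝ) : ℂ)) + ((φ x : ℝ) : ℂ) * Z x := by
        refine (continuous_finsetSum _ fun j _ => (hXc j).mul
          (Complex.continuous_ofReal.comp (H924.cpd hφ j).continuous)).add
          ((Complex.continuous_ofReal.comp hφ.continuous).mul hZc)
      exact (hc.continuousOn.integrableOn_compact hcl).mono_set subset_closure
    have hre := flux ρ hρ.sm (fun j x => (X j x).re) (fun j => Complex.continuous_re.comp (hXc j))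
      (fun x => (Z x).re) (Complex.continuous_re.comp hZc) p hp hne G hG hpG fun φ hφ hφG => by
        have h1 := congrArg Complex.re (key φ hφ hφG)
        rw [← Complex.reCLM_apply, ← Complex.reCLM.integral_comp_comm (hint φ hφ)] at h1
        rw [Complex.zero_re] at h1
        rw [← h1]
        refine integral_congr_ae (Eventually.of_forall fun x => ?_)
        simp
    have him := flux ρ hρ.sm (fun j x => (X j x).im) (fun j => Complex.continuous_im.comp (hXc j))
      (fun x => (Z x).im) (Complex.continuous_im.comp hZc) p hp hne G hG hpG fun φ hφ hφG => by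
        have h1 := congrArg Complex.im (key φ hφ hφG)
        rw [← Complex.imCLM_apply, ← Complex.imCLM.integral_comp_comm (hint φ hφ)] at h1
        rw [Complex.zero_im] at h1
        rw [← h1]
        refine integral_congr_ae (Eventually.of_forall fun x => ?_)
        simp
    have hX' : ∀ j, X j p = ∑ i, (s p i j : ℂ) * cd A i w p l := fun j => by rw [hXe]
    simp only [← hX']
    apply Complex.ext
    · simpa using hre
    · simpa using him
  -- positivity
  have hpos : 0 < ∑ j, ∑ i, s p i j * pd i ρ p * pd j ρ p := by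
    have hv : (fun i => pd i ρ p : V n) ≠ 0 := by
      intro h0
      apply hne
      ext v
      rw [← H924.sum_pd ρ p v]
      refine (Finset.sum_eq_zero fun i _ => ?_).trans (by simp)
      have := congrFun h0 i
      simp only [Pi.zero_apply] at this
      rw [this, mul_zero]
    have h1 := (hps p).dotProduct_mulVec_pos hv
    have h2 : star (fun i => pd i ρ p : V n) ⬝ᵥ (s p *ᵥ fun i => pd i ρ p) =
        ∑ j, ∑ i, s p i j * pd i ρ p * pd j ρ p := by
      simp only [star_trivial, dotProduct, Matrix.mulVec, Finset.mul_sum]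
      rw [Finset.sum_comm]
      refine Finset.sum_congr rfl fun j _ => Finset.sum_congr rfl fun i _ => ?_
      ring
    rwa [h2] at h1
  intro i
  funext l
  obtain ⟨c, hc⟩ := hpar l
  have hwp : w p = 0 := hw0 p hpG hp
  have h1 := hflux l
  have h2 : ∀ i, cd A i w p l = c * (pd i ρ p : ℝ) := by
    intro i
    unfold cd
    rw [hwp, Matrix.mulVec_zero, add_zero, hc i]
  have h3 : ∑ j, (∑ i, (s p i j : ℂ) * cd A i w p l) * (pd j ρ p : ℝ) =
      c * ((∑ j, ∑ i, s p i j * pd i ρ p * pd j ρ p : ℝ) : ℂ) := by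
    push_cast
    rw [Finset.mul_sum]
    refine Finset.sum_congr rfl fun j _ => ?_
    rw [Finset.sum_mul, Finset.mul_sum]
    refine Finset.sum_congr rfl fun i _ => ?_
    rw [h2 i]
    ring
  rw [h3] at h1
  rcases mul_eq_zero.1 h1 with h4 | h4
  · rw [hc i, h4, zero_mul]
    rfl
  · exact absurd (by exact_mod_cast h4) hpos.ne'

end Vale.Agent.P088.LR.P72
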