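import Vale.Agent.P088.H72.P.Fl
import Vale.Agent.P088.H924.P.Cut
import Vale.Agent.P088.H924.P.Top
import Vale.Agent.P088.H188.PUi
import Vale.Agent.P088.H231.VN
import Vale.Agent.P088.H991.UB
import Vale.Agent.P088.H991.SDG

/-!
# P088, data on a patch of the boundary: assembly
-/

open MeasureTheory Set
open scoped ContDiff Matrix

noncomputable section

namespace Vale.Agent.P088.LR.P72

open Vale.Agent.P088.LR Vale.Agent.P088.LR.B Vale.Agent.P088.LR.U Vale.Agent.P088.LR.P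

theorem cut : P.RowCUT :=
  H924.P.cut H188.PU.ui (H991.ub H188.PU.ui P.H231.vn) fl

theorem top : P.RowTOP := H924.P.top cut

/-- **From the patch to the whole boundary.** -/
theorem sdu {n N : ℕ} (ρ : V n → ℝ) (hρ : SDom ρ) (g₁ g₂ : MF n) (A₁ A₂ : Cn n N)
    (h1 : SmM g₁) (h2 : SmM g₂) (p1 : ∀ x, (g₁ x).PosDef) (p2 : ∀ x, (g₂ x).PosDef)
    (a1 : SmU A₁) (a2 : SmU A₂) (G : Set (V n)) (hG : IsOpen G) (hA : Acc ρ G g₁ A₁ g₂ A₂)
    (hD : SDG G (Om ρ) g₁ A₁ g₂ A₂) : SDU (Om ρ) g₁ A₁ g₂ A₂ := by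
  have z0 : ContDiff ℝ ∞ (fun _ : V n => (0 : Fin N → ℂ)) := contDiff_const
  refine top ρ hρ g₁ g₂ A₁ A₂ h1 h2 p1 p2 a1 a2 G hG hA (fun f hf => ?_) (fun f hf => ?_)
    fun f h hf hh hfG hhG => ?_
  · obtain ⟨u, v, u', v', q, _⟩ := hD f _ hf z0
    exact ⟨u, q⟩
  · obtain ⟨u, v, u', v', _, _, q, _⟩ := hD f _ hf z0
    exact ⟨u', q⟩
  · obtain ⟨u, v, u', v', q1, q2, q3, q4, q5⟩ := hD f h hf hh
    exact ⟨u, v, u', v', q1, q2, q3, q4, q5 hfG hhG⟩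

end Vale.Agent.P088.LR.P72
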